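import Vale.Agent.P244.Stmt
import Vale.Agent.P244.Defs

open Set Filter Topology
open scoped Manifold ContDiff

noncomputable section

namespace Vale.Agent.P244

open P244S (jac coef RicciFlow BoundedScal Extends)

variable {n : ℕ}

theorem br_r : @P244S.ricci = @ricci := rfl

theorem br_s : @P244S.scal = @scal := rfl

theorem br_pd {f g : E n → ℝ} {y : E n} (h : f =ᶠ[𝓝 y] g) (i : Fin n) : pd i f y = pd i g y := by
  unfold pd; rw [h.fderiv_eq]

theorem br_chris {g g' : Tensor n} {y : E n} (h : g =ᶠ[𝓝 y] g') (k i j : Fin n) :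
    chris g k i j y = chris g' k i j y := by
  have e : ∀ a b c, pd a (fun w => g w b c) y = pd a (fun w => g' w b c) y := fun a b c =>
    br_pd (h.mono fun w hw => by simp only [hw]) a
  simp only [chris, e, h.self_of_nhds]

theorem br_ricci {g g' : Tensor n} {y : E n} (h : g =ᶠ[𝓝 y] g') (i j : Fin n) :
    ricci g i j y = ricci g' i j y := by
  have e : ∀ a k b c, pd a (chris g k b c) y = pd a (chris g' k b c) y := fun a k b c =>
    br_pd (h.eventuallyEq_nhds.mono fun w hw => br_chris hw k b c) a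
  simp only [ricci, e, br_chris h]

theorem br_scal {g g' : Tensor n} {y : E n} (h : g =ᶠ[𝓝 y] g') : scal g y = scal g' y := by
  simp only [scal, br_ricci h, h.self_of_nhds]

variable {M : Type} [TopologicalSpace M] [ChartedSpace (E n) M]

/-- the matrix of a field of forms -/
def toM (g : Form n M) (x : M) : Matrix (Fin n) (Fin n) ℝ :=
  Matrix.of fun a b => (g x : E n →L[ℝ] E n →L[ℝ] ℝ) (EuclideanSpace.single a (1 : ℝ))
    (EuclideanSpace.single b (1 : ℝ))

theorem br_expand (B : E n →L[ℝ] E n →L[ℝ] ℝ) (v w : E n) :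
    B v w = ∑ b, (∑ a, v a * B (EuclideanSpace.single a 1) (EuclideanSpace.single b 1)) * w b := by
  have hv : ∀ u : E n, u = ∑ a, u a • EuclideanSpace.single a (1 : ℝ) := fun u => by
    ext c; simp [Finset.sum_apply, Pi.single_apply]
  conv_lhs => rw [hv v, hv w]
  simp only [map_sum, map_smul, sum_apply, smul_apply,
    smul_eq_mul]
  exact Finset.sum_congr rfl fun b _ => mul_comm _ _

/-- the form of a matrix -/
def ofM (A : Matrix (Fin n) (Fin n) ℝ) : E n →L[ℝ] E n →L[ℝ] ℝ :=
  ∑ a, ∑ b, A a b • (EuclideanSpace.proj a : E n →L[ℝ] ℝ).smulRight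
    (EuclideanSpace.proj b : E n →L[ℝ] ℝ)

theorem ofM_single (A : Matrix (Fin n) (Fin n) ℝ) (a b : Fin n) :
    ofM A (EuclideanSpace.single a 1) (EuclideanSpace.single b 1) = A a b := by
  simp [ofM]

theorem toM_ofM (A : M → Matrix (Fin n) (Fin n) ℝ) :
    toM (fun x => (ofM (A x) : E n →L[ℝ] E n →L[ℝ] ℝ) : Form n M) = A := by
  funext x; ext a b; exact ofM_single (A x) a b

theorem ofM_toM (g : Form n M) (x : M) : ofM (toM g x) = g x := by
  refine ContinuousLinearMap.ext fun v => ContinuousLinearMap.ext fun w => ?_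
  have h1 := br_expand (ofM (toM g x)) v w
  have h2 := br_expand (g x) v w
  simp only [ofM_single] at h1
  exact h1.trans h2.symm

/-- the derivative of the inverse chart -/
def dch (e : OpenPartialHomeomorph M (E n)) (y : E n) : E n →L[ℝ] E n :=
  mfderiv (𝓡 n) (𝓡 n) e.symm y

theorem br_vec [IsManifold (𝓡 n) ∞ M] {e : OpenPartialHomeomorph M (E n)} (he : e ∈ atlas (E n) M)
    {y : E n} (hy : y ∈ e.target) (i a : Fin n) :
    dch e y (EuclideanSpace.single i (1 : ℝ)) a = jac e y a i := by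
  have hm : MDifferentiableAt (𝓡 n) (𝓡 n) e.symm y := mdifferentiableAt_atlas_symm he hy
  have hd : HasFDerivWithinAt (fun w => chartAt (E n) (e.symm y) (e.symm w)) (dch e y)
      (range (𝓡 n)) y := hm.hasMFDerivAt.2
  have hd' : HasFDerivAt (fun w => chartAt (E n) (e.symm y) (e.symm w)) (dch e y) y := by
    simpa [hasFDerivWithinAt_univ] using hd
  have h2 := ((EuclideanSpace.proj a : E n →L[ℝ] ℝ).hasFDerivAt.comp y hd').fderiv
  simp only [jac, Matrix.of_apply, P244S.pd]
  have h3 : (fun w => chartAt (E n) (e.symm y) (e.symm w) a) =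
      (EuclideanSpace.proj a : E n →L[ℝ] ℝ) ∘ fun w => chartAt (E n) (e.symm y) (e.symm w) := rfl
  rw [h3, h2]
  rfl

theorem br_coef [IsManifold (𝓡 n) ∞ M] (g : Form n M) {e : OpenPartialHomeomorph M (E n)}
    (he : e ∈ atlas (E n) M) {y : E n} (hy : y ∈ e.target) : coef (toM g) e y = coeff g e y := by
  ext i j
  have h := br_expand (g (e.symm y)) (dch e y (EuclideanSpace.single i (1 : ℝ)))
    (dch e y (EuclideanSpace.single j (1 : ℝ)))
  simp only [br_vec he hy] at h
  simp only [coef, Matrix.mul_apply, Matrix.transpose_apply]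
  exact h.symm

theorem br_ev [IsManifold (𝓡 n) ∞ M] (g : Form n M) {e : OpenPartialHomeomorph M (E n)}
    (he : e ∈ atlas (E n) M) {y : E n} (hy : y ∈ e.target) :
    coef (toM g) e =ᶠ[𝓝 y] coeff g e :=
  (e.open_target.eventually_mem hy).mono fun _ hw => br_coef g he hw

theorem br_flow [IsManifold (𝓡 n) ∞ M] (g : ℝ → Form n M) (T : ℝ) :
    RicciFlow (fun t => toM (g t)) T ↔ IsRicciFlow g T := by
  refine forall₂_congr fun e he => and_congr (forall₂_congr fun i j => contDiffOn_congr ?_) ?_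
  · intro p hp
    rw [br_coef _ he hp.2]
  · refine forall₂_congr fun t _ => forall₂_congr fun y hy => ?_
    simp only [br_r, br_coef _ he hy, br_ricci (br_ev (g t) he hy)]

theorem br_main [IsManifold (𝓡 n) ∞ M] {g : ℝ → Form n M} {T : ℝ} (h1 : IsRicciFlow g T)
    (h2 : ScalBounded g T) (h3 : ¬ ExtendsPast g T) :
    RicciFlow (fun t => toM (g t)) T ∧ BoundedScal (fun t => toM (g t)) T ∧
      ¬ Extends (fun t => toM (g t)) T := by
  refine ⟨(br_flow g T).2 h1, ?_, ?_⟩
  · obtain ⟨C, hC⟩ := h2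
    exact ⟨C, fun t ht e he y hy => by
      rw [br_s, br_scal (br_ev (g t) he hy)]; exact hC t ht e he y hy⟩
  · rintro ⟨ε, hε, g', hg', hgg⟩
    refine h3 ⟨ε, hε, fun t x => (ofM (g' t x) : E n →L[ℝ] E n →L[ℝ] ℝ), (br_flow _ _).1 ?_,
      fun t ht => ?_⟩
    · simpa only [toM_ofM] using hg'
    · funext x
      have hx : g' t x = toM (g t) x := congrFun (hgg t ht) x
      exact (congrArg ofM hx).trans (ofM_toM (g t) x)

end Vale.Agent.P244
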