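import Vale.Agent.P244.Defs

/-! Doubly warped solutions `ℓ² dx² + h² g_(S^q) + f² g_(S²) / (q - 1)` in the gauge of constant
speed, and the three main steps. -/

open Set
open scoped ContDiff

noncomputable section

namespace Vale.Agent.P244

/-- Derivative in the first variable (time). -/
def dt (u : ℝ × ℝ → ℝ) (p : ℝ × ℝ) : ℝ := deriv (fun t => u (t, p.2)) p.1

/-- Derivative in the second variable (place). -/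
def dx (u : ℝ × ℝ → ℝ) (p : ℝ × ℝ) : ℝ := deriv (fun x => u (p.1, x)) p.2

/-- The unknown functions. -/
structure Pre where
  ℓ : ℝ → ℝ
  η : ℝ × ℝ → ℝ
  F : ℝ × ℝ → ℝ
  w : ℝ × ℝ → ℝ

namespace Pre

variable (S : Pre)

/-- the drift -/
def ξ (p : ℝ × ℝ) : ℝ := Real.sin p.2 * S.w p
/-- radius of the big sphere -/
def h (p : ℝ × ℝ) : ℝ := S.ℓ p.1 * Real.sin p.2 * S.η p
/-- time derivative in the gauge of the Ricci flow -/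
def Dt (u : ℝ × ℝ → ℝ) (p : ℝ × ℝ) : ℝ := dt u p - S.ξ p * dx u p
/-- derivative by arclength -/
def Ds (u : ℝ × ℝ → ℝ) (p : ℝ × ℝ) : ℝ := dx u p / S.ℓ p.1
def G (p : ℝ × ℝ) : ℝ := Real.log (S.h p)
def X : ℝ × ℝ → ℝ := S.Ds S.F
def Y : ℝ × ℝ → ℝ := S.Ds S.G
def a : ℝ × ℝ → ℝ := S.Ds S.h
/-- mean curvature of the slices -/
def H (q : ℕ) (p : ℝ × ℝ) : ℝ := 2 * S.X p + q * S.Y p
/-- the Laplacian on invariant functions -/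
def lap (q : ℕ) (u : ℝ × ℝ → ℝ) (p : ℝ × ℝ) : ℝ := S.Ds (S.Ds u) p + S.H q p * S.Ds u p
/-- the heat operator -/
def box (q : ℕ) (u : ℝ × ℝ → ℝ) (p : ℝ × ℝ) : ℝ := S.Dt u p - S.lap q u p
/-- Ricci curvature in the radial direction -/
def ρ0 (q : ℕ) (p : ℝ × ℝ) : ℝ :=
  -2 * (S.Ds S.X p + S.X p ^ 2) - q * (S.Ds S.Y p + S.Y p ^ 2)
/-- Ricci curvature along the small sphere -/
def ρ1 (q : ℕ) (p : ℝ × ℝ) : ℝ := (q - 1) * Real.exp (-2 * S.F p) - S.lap q S.F p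
/-- Ricci curvature along the big sphere -/
def ρ2 (q : ℕ) (p : ℝ × ℝ) : ℝ := (q - 1) / S.h p ^ 2 - S.lap q S.G p
/-- scalar curvature -/
def R (q : ℕ) (p : ℝ × ℝ) : ℝ := S.ρ0 q p + 2 * S.ρ1 q p + q * S.ρ2 q p

end Pre

/-- the open space-time domain -/
def Om (T : ℝ) : Set (ℝ × ℝ) := Ioo 0 T ×ˢ Ioo 0 Real.pi

/-- `S` solves the reduced flow on `[0, T)`. -/
structure IsSol (q : ℕ) (T : ℝ) (S : Pre) : Prop where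
  smℓ : ContDiffOn ℝ ∞ S.ℓ (Ico 0 T)
  smη : ContDiffOn ℝ ∞ S.η (Ico 0 T ×ˢ univ)
  smF : ContDiffOn ℝ ∞ S.F (Ico 0 T ×ˢ univ)
  smw : ContDiffOn ℝ ∞ S.w (Ico 0 T ×ˢ univ)
  posℓ : ∀ t ∈ Ico 0 T, 0 < S.ℓ t
  posη : ∀ t ∈ Ico 0 T, ∀ x, 0 < S.η (t, x)
  poleη : ∀ t ∈ Ico 0 T, S.η (t, 0) = 1
  evenη : ∀ t x, S.η (t, -x) = S.η (t, x)
  evenF : ∀ t x, S.F (t, -x) = S.F (t, x)
  evenw : ∀ t x, S.w (t, -x) = S.w (t, x)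
  reflη : ∀ t x, S.η (t, Real.pi - x) = S.η (t, x)
  reflF : ∀ t x, S.F (t, Real.pi - x) = S.F (t, x)
  reflw : ∀ t x, S.w (t, Real.pi - x) = -S.w (t, x)
  eqF : ∀ p ∈ Om T, S.Dt S.F p = -S.ρ1 q p
  eqG : ∀ p ∈ Om T, S.Dt S.G p = -S.ρ2 q p
  eqℓ : ∀ p ∈ Om T, dx S.ξ p - deriv S.ℓ p.1 / S.ℓ p.1 = S.ρ0 q p

/-- The Ricci curvature is bounded. -/
def RicBdd (q : ℕ) (T : ℝ) (S : Pre) : Prop :=
  ∃ C : ℝ, ∀ p ∈ Om T, |S.ρ0 q p| ≤ C ∧ |S.ρ1 q p| ≤ C ∧ |S.ρ2 q p| ≤ C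

/-- Initial condition: `F = F0 (h²)`, `h_s² = (1 - h²) Z (h²)`, `h_s ≥ 0` on the first half. -/
def Init (S : Pre) (Z F0 : ℝ → ℝ) : Prop :=
  ∀ x, S.F (0, x) = F0 (S.h (0, x) ^ 2) ∧
    S.a (0, x) ^ 2 = (1 - S.h (0, x) ^ 2) * Z (S.h (0, x) ^ 2) ∧
    S.Ds S.a (0, x) = S.h (0, x) * deriv (fun r => (1 - r) * Z r) (S.h (0, x) ^ 2) ∧
    S.h (0, x) ^ 2 ≤ 1 ∧ (x ∈ Ico 0 (Real.pi / 2) → 0 < S.a (0, x)) ∧ S.h (0, Real.pi / 2) = 1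

/-- parameter space of the shooting argument -/
abbrev Par : Type := EuclideanSpace ℝ (Fin 3)

/-- Statement of step A (geometry). -/
def StepA : Prop :=
  ∀ (q : ℕ) (T : ℝ) (S : Pre), 2 ≤ q → 0 < T → IsSol q T S →
    (∃ C : ℝ, ∀ p ∈ Om T, |S.R q p| ≤ C) →
    (∀ ε > (0 : ℝ), ∀ t0 < T, ∃ p ∈ Om T, t0 < p.1 ∧ Real.exp (S.F p) < ε) → Counter (q + 3)

/-- Statement of step B (existence, continuation, continuous dependence). -/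
def StepB : Prop :=
  ∀ (q : ℕ) (T : ℝ) (Z F0 : Par × ℝ → ℝ), 2 ≤ q → 0 < T →
    (∀ d, ∀ r ∈ Icc (0 : ℝ) 1, ContDiffAt ℝ ∞ Z (d, r) ∧ ContDiffAt ℝ ∞ F0 (d, r) ∧ 0 < Z (d, r)) →
    (∀ d, Z (d, 0) = 1) →
    ∃ (Tm : Par → ℝ) (S : Par → Pre),
      (∀ d, 0 < Tm d ∧ Tm d ≤ T ∧ IsSol q (Tm d) (S d) ∧
        Init (S d) (fun r => Z (d, r)) (fun r => F0 (d, r)) ∧
        (Tm d < T → ¬ RicBdd q (Tm d) (S d))) ∧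
      LowerSemicontinuous Tm ∧
      ContinuousOn (fun y : Par × ℝ × ℝ =>
          ((S y.1).ℓ y.2.1, (S y.1).h y.2, (S y.1).a y.2, (S y.1).F y.2))
        {y | 0 ≤ y.2.1 ∧ y.2.1 < Tm y.1}

end Vale.Agent.P244
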