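import Mathlib

/-! Ricci flow on a manifold. A two-tensor field on `M` is given, at each point `x`, by its matrix
in the coordinate basis of the preferred chart `chartAt x`. -/

open Set
open scoped ContDiff

noncomputable section

namespace Vale.Agent.P244S

/-- Euclidean space of dimension `n`. -/
abbrev E (n : ℕ) : Type := EuclideanSpace ℝ (Fin n)

/-- A symmetric two-tensor in coordinates: a matrix `g_ij(y)` at each point. -/
abbrev Tensor (n : ℕ) : Type := E n → Matrix (Fin n) (Fin n) ℝ

variable {n : ℕ}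

/-- The coordinate derivative `∂_i f (y)`. -/
def pd (i : Fin n) (f : E n → ℝ) (y : E n) : ℝ := fderiv ℝ f y (EuclideanSpace.single i 1)

/-- Christoffel symbols `Γ^k_ij` of the Levi-Civita connection. -/
def chris (g : Tensor n) (k i j : Fin n) (y : E n) : ℝ :=
  (1 / 2) * ∑ l, (g y)⁻¹ k l *
    (pd i (fun w => g w j l) y + pd j (fun w => g w i l) y - pd l (fun w => g w i j) y)

/-- The Ricci tensor `R_ij = ∂_k Γ^k_ij - ∂_j Γ^k_ik + Γ^k_kl Γ^l_ij - Γ^k_jl Γ^l_ik`. -/
def ricci (g : Tensor n) (i j : Fin n) (y : E n) : ℝ :=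
  ∑ k, (pd k (chris g k i j) y - pd j (chris g k i k) y +
    ∑ l, (chris g k k l y * chris g l i j y - chris g k j l y * chris g l i k y))

/-- Scalar curvature `g^ij R_ij`. -/
def scal (g : Tensor n) (y : E n) : ℝ := ∑ i, ∑ j, (g y)⁻¹ i j * ricci g i j y

variable {M : Type} [TopologicalSpace M] [ChartedSpace (E n) M]

/-- The Jacobian matrix at `y` of the change of coordinates from the chart `e` to the preferred
chart at the point `e⁻¹ y`. -/
def jac (e : OpenPartialHomeomorph M (E n)) (y : E n) : Matrix (Fin n) (Fin n) ℝ :=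
  Matrix.of fun a i => pd i (fun w => chartAt (E n) (e.symm y) (e.symm w) a) y

/-- The coefficients `g(∂_i, ∂_j)`, in the chart `e`, of the two-tensor field whose matrix at each
point `x` in the preferred chart at `x` is `g x`. -/
def coef (g : M → Matrix (Fin n) (Fin n) ℝ) (e : OpenPartialHomeomorph M (E n)) : Tensor n :=
  fun y => (jac e y).transpose * g (e.symm y) * jac e y

/-- `g t`, `0 ≤ t < T`, is a smooth Ricci flow: in every chart of the atlas the coefficients are
smooth functions of time and place on `[0, T) × (chart image)`, they form a symmetric positive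
definite matrix, and `∂_t g_ij = -2 R_ij`. -/
def RicciFlow (g : ℝ → M → Matrix (Fin n) (Fin n) ℝ) (T : ℝ) : Prop :=
  ∀ e ∈ atlas (E n) M,
    (∀ i j, ContDiffOn ℝ ∞ (fun p : ℝ × E n => coef (g p.1) e p.2 i j) (Ico 0 T ×ˢ e.target)) ∧
    ∀ t ∈ Ico 0 T, ∀ y ∈ e.target, (coef (g t) e y).PosDef ∧
      ∀ i j, HasDerivWithinAt (fun s => coef (g s) e y i j)
        (-2 * ricci (coef (g t) e) i j y) (Ico 0 T) t

/-- The scalar curvature is bounded on `M × [0, T)`. -/
def BoundedScal (g : ℝ → M → Matrix (Fin n) (Fin n) ℝ) (T : ℝ) : Prop :=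
  ∃ C : ℝ, ∀ t ∈ Ico 0 T, ∀ e ∈ atlas (E n) M, ∀ y ∈ e.target, |scal (coef (g t) e) y| ≤ C

/-- The flow extends past `T`: a smooth Ricci flow on the same manifold, on a longer time
interval, agrees with `g` before `T`. -/
def Extends (g : ℝ → M → Matrix (Fin n) (Fin n) ℝ) (T : ℝ) : Prop :=
  ∃ ε > (0 : ℝ), ∃ g' : ℝ → M → Matrix (Fin n) (Fin n) ℝ,
    RicciFlow g' (T + ε) ∧ ∀ t ∈ Ico 0 T, g' t = g t

end Vale.Agent.P244S
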